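import Vale.Agent.Lib.P190.Final

/-!
A special case of the small Cohen-Macaulay module conjecture, free of any assumption on the
characteristic or on a grading: `A` is regular local, `R` is local and module-finite over `A`,
`T` is a commutative `R`-algebra, module-finite over `A` and containing `A`, of projective
dimension at most one over `A`, such that `Ext¹_A(T, A)` is a cyclic `T`-module.
-/

universe u

open CategoryTheory Abelian in
theorem Vale.Agent.Results.P190.CyclicExt.result {A R T : Type u} [CommRing A]
    [IsRegularLocalRing A] [CommRing R] [IsLocalRing R] [CommRing T]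
    [Algebra A R] [Algebra R T] [Algebra A T] [IsScalarTower A R T]
    [Module.Finite A R] [Module.Finite A T]
    (hinj : Function.Injective (algebraMap A T))
    (hpd : HasProjectiveDimensionLE (ModuleCat.of A T) 1)
    (g : Ext (ModuleCat.of A T) (ModuleCat.of A A) 1)
    (hg : ∀ h : Ext (ModuleCat.of A T) (ModuleCat.of A A) 1, ∃ t : T,
      h = (Ext.mk₀ (ModuleCat.ofHom (LinearMap.mulLeft A t))).comp g (zero_add 1)) :
    ∃ (M : Type u) (_ : AddCommGroup M) (_ : Module R M), Module.Finite R M ∧
      ∃ s : List R, (∀ x ∈ s, x ∈ IsLocalRing.maximalIdeal R) ∧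
        RingTheory.Sequence.IsRegular M s ∧
        (s.length : WithBot ℕ∞) = ringKrullDim R :=
  Vale.Agent.Lib.P190.mainCyclic hinj hpd g hg
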